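import Mathlib
import Vale.Agent.H13.P121.Defs
import Vale.Agent.H13.P121.Main

/-!
P121: a negative answer to the Monge question for the three-marginal Coulomb problem.
-/

open MeasureTheory
open scoped ENNReal

namespace Vale.Agent.Results.P121.NoMonge

open Vale.Agent.H13.P121

/-- There is an absolutely continuous Borel probability measure on `ℝ³` with finite Kantorovich
value for the three-marginal Coulomb cost which has no optimal Monge plan: every Monge plan has
cost strictly larger than the Kantorovich value. -/
theorem result : ∃ μ : Measure R3, IsProbabilityMeasure μ ∧ μ ≪ volume ∧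
    kantorovichValue μ < ∞ ∧
    ∀ T₂ T₃ : R3 → R3, IsMongePlan μ T₂ T₃ → kantorovichValue μ < mongeCost μ T₂ T₃ :=
  Vale.Agent.H13.P121.main

end Vale.Agent.Results.P121.NoMonge
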